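import Mathlib
import Vale.Agent.Lib.P199.Central

namespace Vale.Agent.Results.P199.AlgebraicOverSubfield

open Vale.Agent.Lib.P199

universe u v

/-- Kurosh's original formulation for a class of central subfields.  Let `k` be a field such
that (1) every division ring that is a finite-dimensional `k`-algebra is commutative and (2) for
every finite field extension `E` of `k`, every finite separable field extension `K ≠ E` of `E`
has a non-identity `E`-automorphism.  Then every division ring `D` that is an algebraic
`k`-algebra (so `k` is a central subfield, not necessarily the whole centre) is commutative, and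
every finite subset of `D` generates a finite-dimensional `k`-subalgebra. -/
theorem result (k : Type u) [Field k]
    (hBr : ∀ (Δ : Type v) [DivisionRing Δ] [Algebra k Δ], FiniteDimensional k Δ →
      ∀ x y : Δ, x * y = y * x)
    (hAut : ∀ (E : Type v) [Field E] [Algebra k E], FiniteDimensional k E →
      ∀ (K : Type v) [Field K] [Algebra E K], FiniteDimensional E K →
        Algebra.IsSeparable E K → (∃ x : K, x ∉ Set.range (algebraMap E K)) →
        ∃ σ : K ≃ₐ[E] K, σ ≠ AlgEquiv.refl)
    (D : Type v) [DivisionRing D] [Algebra k D] [Algebra.IsAlgebraic k D] :
    (∀ x y : D, x * y = y * x) ∧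
      ∀ S : Set D, S.Finite → FiniteDimensional k (Algebra.adjoin k S) := by
  have hcomm := commutative_of_algebraic k hBr hAut D
  exact ⟨hcomm, fun S hS => finiteDimensional_adjoin_of_comm hcomm
    (fun x => (Algebra.IsAlgebraic.isAlgebraic x).isIntegral) S hS⟩

/-- Both hypotheses of `result` hold for every finite field `k` (Wedderburn's theorem, and the
fact that finite extensions of finite fields are Galois); so `result` contains Jacobson's theorem
on division rings algebraic over a finite field. -/
theorem finite_field_case (k : Type u) [Field k] [Finite k]
    (D : Type v) [DivisionRing D] [Algebra k D] [Algebra.IsAlgebraic k D] :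
    (∀ x y : D, x * y = y * x) ∧
      ∀ S : Set D, S.Finite → FiniteDimensional k (Algebra.adjoin k S) := by
  refine result k ?_ ?_ D
  · intro Δ _ _ hΔ x y
    have : Finite Δ := Module.finite_of_finite k
    exact (littleWedderburn Δ).mul_comm x y
  · intro E _ _ hE K _ _ hK _ hx
    obtain ⟨x, hx⟩ := hx
    have : Finite E := Module.finite_of_finite k
    have : Finite K := Module.finite_of_finite E
    by_contra hcon
    simp only [not_exists, not_not] at hcon
    apply hx
    have hmem : x ∈ (⊥ : IntermediateField E K) :=
      (IsGalois.mem_bot_iff_fixed x).mpr (fun σ => by rw [hcon σ]; rfl)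
    exact IntermediateField.mem_bot.mp hmem

end Vale.Agent.Results.P199.AlgebraicOverSubfield
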