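import Mathlib
import Vale.Agent.Lib.P199.Core

namespace Vale.Agent.Results.P199.JacobsonTypeCenter

open Polynomial Vale.Agent.Lib.P199

universe u v

/-- Let `F` be a field such that (1) every division ring that is a finite-dimensional
`F`-algebra is commutative, and (2) every finite separable field extension `K ≠ F` of `F` has a
non-identity `F`-automorphism.  Then every division ring `D` with centre `F` that is algebraic
over `F` is commutative, and `D = F`. -/
theorem result (F : Type u) [Field F]
    (hBr : ∀ (Δ : Type v) [DivisionRing Δ] [Algebra F Δ], FiniteDimensional F Δ →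
      ∀ x y : Δ, x * y = y * x)
    (hAut : ∀ (K : Type u) [Field K] [Algebra F K], FiniteDimensional F K →
      Algebra.IsSeparable F K → (∃ x : K, x ∉ Set.range (algebraMap F K)) →
      ∃ σ : K ≃ₐ[F] K, σ ≠ AlgEquiv.refl)
    (D : Type v) [DivisionRing D] [Algebra F D] [Algebra.IsCentral F D]
    [Algebra.IsAlgebraic F D] :
    (∀ x y : D, x * y = y * x) ∧ Function.Surjective (algebraMap F D) := by
  classical
  have hcomm : ∀ x y : D, x * y = y * x := by
    by_contra hcon
    simp only [not_forall] at hcon
    obtain ⟨a₀, b₀, hab⟩ := hcon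
    have hneq : (⊥ : Subalgebra F D) ≠ ⊤ := by
      intro h
      have ha₀ : a₀ ∈ (⊥ : Subalgebra F D) := h ▸ Algebra.mem_top
      obtain ⟨c, rfl⟩ := Algebra.mem_bot.mp ha₀
      exact hab (Algebra.commutes c b₀)
    obtain ⟨a, ha_notin, ha_sep⟩ := JacobsonNoether.exists_separable_and_not_isCentral' hneq
    have ha_int : IsIntegral F a := (Algebra.IsAlgebraic.isAlgebraic a).isIntegral
    have hirr : Irreducible (minpoly F a) := minpoly.irreducible ha_int
    have : Fact (Irreducible (minpoly F a)) := ⟨hirr⟩
    have hf0 : minpoly F a ≠ 0 := hirr.ne_zero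
    have hmonic : (minpoly F a).Monic := minpoly.monic ha_int
    have hfd : FiniteDimensional F (AdjoinRoot (minpoly F a)) :=
      (AdjoinRoot.powerBasis hf0).finite
    -- the root is separable, hence the whole extension is
    have hroot_sep : IsSeparable F (AdjoinRoot.root (minpoly F a)) := by
      unfold IsSeparable
      rw [AdjoinRoot.minpoly_root hf0, hmonic.leadingCoeff, inv_one, map_one, mul_one]
      exact ha_sep
    have hsep : Algebra.IsSeparable F (AdjoinRoot (minpoly F a)) := by
      refine ⟨fun y => ?_⟩
      have h1 : Algebra.adjoin F ({AdjoinRoot.root (minpoly F a)} : Set (AdjoinRoot (minpoly F a)))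
          ≤ (separableClosure F (AdjoinRoot (minpoly F a))).toSubalgebra := by
        apply Algebra.adjoin_le
        intro z hz
        rw [Set.mem_singleton_iff] at hz
        subst hz
        exact hroot_sep
      rw [AdjoinRoot.adjoinRoot_eq_top] at h1
      exact h1 (Algebra.mem_top : y ∈ (⊤ : Subalgebra F (AdjoinRoot (minpoly F a))))
    have hroot_notin : AdjoinRoot.root (minpoly F a)
        ∉ Set.range (algebraMap F (AdjoinRoot (minpoly F a))) := by
      rintro ⟨c, hc⟩
      apply ha_notin
      have h1 : aeval (AdjoinRoot.root (minpoly F a)) (X - C c) = 0 := by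
        simp [← hc]
      have h2 : minpoly F a ∣ X - C c := by
        have := AdjoinRoot.mk_eq_zero.mp ((AdjoinRoot.aeval_eq (X - C c)).symm.trans h1)
        exact this
      have h3 : aeval a (X - C c) = 0 := by
        obtain ⟨q, hq⟩ := h2
        rw [hq, map_mul, minpoly.aeval, zero_mul]
      have h4 : a = algebraMap F D c := by
        simpa [sub_eq_zero] using h3
      rw [h4]
      exact Subalgebra.algebraMap_mem _ c
    obtain ⟨σ, hσ⟩ := hAut (AdjoinRoot (minpoly F a)) hfd hsep ⟨_, hroot_notin⟩
    obtain ⟨u, hu, hfdΔ⟩ := exists_noncomm_fd a (minpoly F a) rfl σ hσ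
    let _ : DivisionRing (Algebra.adjoin F ({a, u} : Set D)) :=
      divisionRingOfFiniteDimensional F (Algebra.adjoin F ({a, u} : Set D))
    have haΔ : a ∈ Algebra.adjoin F ({a, u} : Set D) := Algebra.subset_adjoin (by simp)
    have huΔ : u ∈ Algebra.adjoin F ({a, u} : Set D) := Algebra.subset_adjoin (by simp)
    have hc := hBr (Algebra.adjoin F ({a, u} : Set D)) hfdΔ ⟨a, haΔ⟩ ⟨u, huΔ⟩
    exact hu (congrArg Subtype.val hc)
  refine ⟨hcomm, fun d => ?_⟩
  exact center_subset_range d (fun x => hcomm d x)

end Vale.Agent.Results.P199.JacobsonTypeCenter
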