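import Mathlib
import Vale.Agent.Lib.P199.Central

namespace Vale.Agent.Results.P199.NoncentralFiniteDim

open Vale.Agent.Lib.P199

universe u v

/-- Let `k` be a field such that for every finite field extension `E` of `k`, every finite
separable field extension `K ≠ E` of `E` has a non-identity `E`-automorphism (no assumption on
finite-dimensional division algebras over `k`).  Let `D` be a division ring that is an algebraic
`k`-algebra.  Then (a) every element `a` of `D` outside the centre that is separable over the
centre lies in a `k`-subalgebra of `D` that is finite-dimensional over `k` and in which `a` is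
not central; (b) if `D` is not commutative, then `D` has a noncommutative `k`-subalgebra that is
finite-dimensional over `k`. -/
theorem result (k : Type u) [Field k]
    (hAut : ∀ (E : Type v) [Field E] [Algebra k E], FiniteDimensional k E →
      ∀ (K : Type v) [Field K] [Algebra E K], FiniteDimensional E K →
        Algebra.IsSeparable E K → (∃ x : K, x ∉ Set.range (algebraMap E K)) →
        ∃ σ : K ≃ₐ[E] K, σ ≠ AlgEquiv.refl)
    (D : Type v) [DivisionRing D] [Algebra k D] [Algebra.IsAlgebraic k D] :
    (∀ a : D, a ∉ Subring.center D → IsSeparable (Subring.center D) a →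
      ∃ Δ : Subalgebra k D, FiniteDimensional k Δ ∧ a ∈ Δ ∧ ∃ y ∈ Δ, a * y ≠ y * a) ∧
    ((∃ x y : D, x * y ≠ y * x) →
      ∃ Δ : Subalgebra k D, FiniteDimensional k Δ ∧ ∃ x ∈ Δ, ∃ y ∈ Δ, x * y ≠ y * x) :=
  ⟨fun a ha hsep => exists_fd_subalgebra_of_separable k hAut D a ha hsep,
    fun hnc => exists_noncomm_fd_subalgebra k hAut D hnc⟩

end Vale.Agent.Results.P199.NoncentralFiniteDim
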