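import Mathlib
import Vale.Agent.Results.P199.AlgebraicOverSubfield
import Vale.Agent.Results.P199.JacobsonTypeCenter
import Vale.Agent.Results.P199.NoncentralFiniteDim

namespace Vale.Agent.Results.P199.AutomorphismFieldsOmnibus

universe u v

/-- Three theorems on division rings `D` that are algebraic algebras over a field, in one
statement.

(i) Let `k` be a field such that for every finite field extension `E` of `k`, every finite
separable field extension `K ≠ E` of `E` has a non-identity `E`-automorphism, and let `D` be a
division ring that is an algebraic `k`-algebra.  Then every element of `D` outside the centre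
that is separable over the centre lies in a finite-dimensional `k`-subalgebra in which it is
not central, and if `D` is not commutative then `D` has a noncommutative finite-dimensional
`k`-subalgebra.

(ii) If moreover every division ring that is a finite-dimensional `k`-algebra is commutative,
then `D` is commutative and every finite subset of `D` generates a finite-dimensional
`k`-subalgebra.

(iii) Let `F` be a field such that every division ring that is a finite-dimensional
`F`-algebra is commutative and every finite separable field extension `K ≠ F` of `F` has a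
non-identity `F`-automorphism.  Then every division ring `D` with centre `F` that is algebraic
over `F` is commutative, and `D = F`. -/
theorem result :
    (∀ (k : Type u) [Field k],
      (∀ (E : Type v) [Field E] [Algebra k E], FiniteDimensional k E →
        ∀ (K : Type v) [Field K] [Algebra E K], FiniteDimensional E K →
          Algebra.IsSeparable E K → (∃ x : K, x ∉ Set.range (algebraMap E K)) →
          ∃ σ : K ≃ₐ[E] K, σ ≠ AlgEquiv.refl) →
      ∀ (D : Type v) [DivisionRing D] [Algebra k D] [Algebra.IsAlgebraic k D],
      (∀ a : D, a ∉ Subring.center D → IsSeparable (Subring.center D) a →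
        ∃ Δ : Subalgebra k D, FiniteDimensional k Δ ∧ a ∈ Δ ∧ ∃ y ∈ Δ, a * y ≠ y * a) ∧
      ((∃ x y : D, x * y ≠ y * x) →
        ∃ Δ : Subalgebra k D, FiniteDimensional k Δ ∧ ∃ x ∈ Δ, ∃ y ∈ Δ, x * y ≠ y * x)) ∧
    (∀ (k : Type u) [Field k],
      (∀ (Δ : Type v) [DivisionRing Δ] [Algebra k Δ], FiniteDimensional k Δ →
        ∀ x y : Δ, x * y = y * x) →
      (∀ (E : Type v) [Field E] [Algebra k E], FiniteDimensional k E →
        ∀ (K : Type v) [Field K] [Algebra E K], FiniteDimensional E K →
          Algebra.IsSeparable E K → (∃ x : K, x ∉ Set.range (algebraMap E K)) →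
          ∃ σ : K ≃ₐ[E] K, σ ≠ AlgEquiv.refl) →
      ∀ (D : Type v) [DivisionRing D] [Algebra k D] [Algebra.IsAlgebraic k D],
      (∀ x y : D, x * y = y * x) ∧
        ∀ S : Set D, S.Finite → FiniteDimensional k (Algebra.adjoin k S)) ∧
    (∀ (F : Type u) [Field F],
      (∀ (Δ : Type v) [DivisionRing Δ] [Algebra F Δ], FiniteDimensional F Δ →
        ∀ x y : Δ, x * y = y * x) →
      (∀ (K : Type u) [Field K] [Algebra F K], FiniteDimensional F K →
        Algebra.IsSeparable F K → (∃ x : K, x ∉ Set.range (algebraMap F K)) →
        ∃ σ : K ≃ₐ[F] K, σ ≠ AlgEquiv.refl) →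
      ∀ (D : Type v) [DivisionRing D] [Algebra F D] [Algebra.IsCentral F D]
        [Algebra.IsAlgebraic F D],
      (∀ x y : D, x * y = y * x) ∧ Function.Surjective (algebraMap F D)) :=
  ⟨fun k _ hAut D _ _ _ => NoncentralFiniteDim.result k hAut D,
    fun k _ hBr hAut D _ _ _ => AlgebraicOverSubfield.result k hBr hAut D,
    fun F _ hBr hAut D _ _ _ _ => JacobsonTypeCenter.result F hBr hAut D⟩

end Vale.Agent.Results.P199.AutomorphismFieldsOmnibus
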